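import Vale.Agent.P084.Ultra

namespace Vale.Agent.Results.P084.Tingley

open Vale.Agent.P084 Metric

/-- Tingley's problem: every surjective isometry between the unit spheres of real normed spaces
is the restriction of a surjective real-linear isometry. -/
theorem result (X Y : Type*) [NormedAddCommGroup X] [NormedSpace ℝ X]
    [NormedAddCommGroup Y] [NormedSpace ℝ Y]
    (f : sphere (0 : X) 1 → sphere (0 : Y) 1) (hf : Isometry f) (hs : Function.Surjective f) :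
    ∃ T : X ≃ₗᵢ[ℝ] Y, ∀ x : sphere (0 : X) 1, T x = f x := by
  classical
  have hd : ∀ u : X, u ≠ 0 → ‖u‖⁻¹ • u ∈ sphere (0 : X) 1 := fun u hu => by
    simpa using (dir_spec (norm_pos_iff.2 hu)).1
  set F : X → Y := fun u => if h : u = 0 then 0 else ‖u‖ • (f ⟨_, hd u h⟩ : Y) with hF
  have h0 : F 0 = 0 := by simp [hF]
  have h1 : ∀ (μ : ℝ) (x : sphere (0 : X) 1), 0 ≤ μ → F (μ • (x : X)) = μ • (f x : Y) := by
    intro μ x hμ
    rcases hμ.eq_or_lt with rfl | hμ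
    · simp [h0]
    · have hn : ‖μ • (x : X)‖ = μ := by simp [norm_smul, hμ.le]
      have hne : μ • (x : X) ≠ 0 := by rw [← norm_pos_iff, hn]; exact hμ
      simp only [hF, dif_neg hne, hn]
      congr 3
      exact Subtype.ext (inv_smul_smul₀ hμ.ne' _)
  have h2 : ∀ u : X, u = 0 ∨ ∃ (μ : ℝ) (x : sphere (0 : X) 1), 0 < μ ∧ u = μ • (x : X) := fun u => by
    by_cases hu : u = 0
    · exact Or.inl hu
    · exact Or.inr ⟨‖u‖, ⟨_, hd u hu⟩, norm_pos_iff.2 hu, (dir_spec (norm_pos_iff.2 hu)).2.symm⟩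
  have h3 : ∀ u, ‖F u‖ = ‖u‖ := fun u => by
    rcases h2 u with rfl | ⟨μ, x, hμ, rfl⟩
    · simp [h0]
    · simp [h1 μ x hμ.le, norm_smul]
  have h4 : ∀ u w, |‖u - w‖ - ‖F u - F w‖| ≤ 2 * |‖u‖ - ‖w‖| := fun u w => by
    rcases h2 u with rfl | ⟨μ, x, hμ, rfl⟩
    · simp [h0, h3]
    rcases h2 w with rfl | ⟨ν, y, hν, rfl⟩
    · simp [h0, h3]
    have e : ‖(f x : Y) - f y‖ = ‖(x : X) - y‖ := by
      rw [← dist_eq_norm, ← dist_eq_norm]; exact hf.dist_eq x y
    have e1 := abs_norm_sub_norm_le (μ • (x : X) - ν • (y : X)) (μ • ((x : X) - y))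
    have e2 := abs_norm_sub_norm_le (μ • (f x : Y) - ν • (f y : Y)) (μ • ((f x : Y) - f y))
    rw [show μ • (x : X) - ν • (y : X) - μ • ((x : X) - y) = (μ - ν) • (y : X) by module] at e1
    rw [show μ • (f x : Y) - ν • (f y : Y) - μ • ((f x : Y) - f y) = (μ - ν) • (f y : Y) by module]
      at e2
    rw [h1 μ x hμ.le, h1 ν y hν.le]
    simp only [norm_smul, e, norm_eq_of_mem_sphere, mul_one, Real.norm_eq_abs, abs_of_pos hμ,
      abs_of_pos hν] at e1 e2 ⊢
    rw [abs_le] at e1 e2 ⊢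
    constructor <;> linarith
  have h5 : Rad F 2 := by
    refine ⟨fun v => ?_, h3, fun μ u hμ => ?_, h4, fun u w => (h4 u w).trans ?_⟩
    · by_cases hv : v = 0
      · exact ⟨0, by rw [h0, hv]⟩
      · obtain ⟨x, hx⟩ := hs ⟨‖v‖⁻¹ • v, by simpa using (dir_spec (norm_pos_iff.2 hv)).1⟩
        exact ⟨‖v‖ • (x : X), by
          rw [h1 _ _ (norm_nonneg _), hx]; exact (dir_spec (norm_pos_iff.2 hv)).2⟩
    · rcases h2 u with rfl | ⟨ν, x, hν, rfl⟩
      · simp [h0]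
      · rw [smul_smul, h1 _ _ (by positivity), h1 _ _ hν.le, smul_smul]
    · refine mul_le_mul_of_nonneg_left (abs_sub_le_iff.2 ⟨?_, ?_⟩) (by norm_num)
      · linarith [le_max_left ‖u‖ ‖w‖, norm_nonneg w]
      · linarith [le_max_right ‖u‖ ‖w‖, norm_nonneg u]
  have h6 : Isometry F := Isometry.of_dist_eq fun u w => by
    rw [dist_eq_norm, dist_eq_norm, h5.isometry]
  refine ⟨(⟨Equiv.ofBijective F ⟨h6.injective, h5.surj⟩, h6⟩ :
    X ≃ᵢ Y).toRealLinearIsometryEquivOfMapZero h0, fun x => ?_⟩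
  show F x = f x
  simpa using h1 1 x zero_le_one

end Vale.Agent.Results.P084.Tingley
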